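import Vale.Agent.P369.H993.VarFD
import Vale.Agent.P369.H63.So

/-!
P369, FD track (helper993, on top of helper63): `thm_VAR : S_VAR`.
-/

set_option linter.all false

namespace Vale.Agent.P369.H993

open Matrix Finset Filter
open Vale.Agent.P369.H63 (rel Dg dg_of_herm ds so_dual)
open Vale.Agent.P369.FD (outp EA EB EAc EBc Lg IsDM Fun ptrR ptrL dform S_VAR)
open Vale.P369.H587
open scoped ComplexOrder Topology Kronecker

noncomputable section

variable {ι ι' κ ε : Type} [Fintype ι] [DecidableEq ι] [Fintype ι'] [DecidableEq ι']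
  [Fintype κ] [DecidableEq κ] [Fintype ε] [DecidableEq ε]

theorem lm_eq {x y : ℝ} (hx : 0 < x) (hy : 0 < y) :
    Vale.Agent.P369.H63.lm x y = Vale.Agent.P369.H712.lm x y := by
  unfold Vale.Agent.P369.H63.lm Vale.Agent.P369.H712.lm
  rw [if_neg (not_or.2 ⟨not_le.2 hx, not_le.2 hy⟩)]

theorem dform_eq {A : Matrix ι ι ℂ} (hA : A.PosDef) (Z : Matrix ι ι ℂ) :
    dform Vale.Agent.P369.H712.lm hA.isHermitian Z =
      ds Vale.Agent.P369.H63.lm hA.isHermitian.eigenvalues
        (hA.isHermitian.eigenvectorUnitary : Matrix ι ι ℂ) Z := by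
  unfold dform ds
  refine Finset.sum_congr rfl fun k _ => Finset.sum_congr rfl fun l _ => ?_
  rw [lm_eq (hA.eigenvalues_pos k) (hA.eigenvalues_pos l)]

theorem outL_trace (W : Matrix (κ × ε) (ι × ι') ℂ) (hW : Wᴴ * W = 1) {B : Matrix ι' ι' ℂ}
    (hB : B.trace = 1) (X : Matrix ι ι ℂ) : (outL W B X).trace = X.trace := by
  have h := trace_outC_dualA W X B 1
  rw [Matrix.mul_one, dualA_one W B hW hB, Matrix.mul_one] at h
  exact h

theorem outR_trace (W : Matrix (κ × ε) (ι × ι') ℂ) (hW : Wᴴ * W = 1) {A : Matrix ι ι ℂ}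
    (hA : A.trace = 1) (X : Matrix ι' ι' ℂ) : (outR W A X).trace = X.trace := by
  have h := trace_outC_dualB W A X 1
  rw [Matrix.mul_one, dualB_one W A hW hA, Matrix.mul_one] at h
  exact h

theorem ptrR_conj (T : Matrix (κ × ε) (κ × ε) ℂ) : ptrR Tᴴ = (ptrR T)ᴴ := by
  ext i j
  simp [ptrR, conjTranspose_apply]

theorem outp_conj (W : Matrix (κ × ε) (ι × ι') ℂ) (X : Matrix ι ι ℂ) (Y : Matrix ι' ι' ℂ) :
    outp W Xᴴ Yᴴ = (outp W X Y)ᴴ := by
  unfold outp
  rw [← ptrR_conj, conjTranspose_mul, conjTranspose_mul, conjTranspose_conjTranspose,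
    conjTranspose_kronecker, Matrix.mul_assoc]

/-- package VAR -/
theorem thm_VAR' : S_VAR := by
  intro ι ι' κ ε _ _ _ _ _ _ _ _ _ _ W hW TC sA sB e hTC hsA hsB he PA PB hPA hPB
  obtain ⟨A, B, hA, hB, hmin⟩ := fun_min W TC sA sB (e := e) PA PB
  set C := outp W A B + ((e : ℝ) : ℂ) • (1 : Matrix κ κ ℂ) with hC
  obtain ⟨h1, h2, h3, h4, h5, h6, h7⟩ := fun_gibbs hW hTC.le hsA hsB he hPA hPB hA hB hmin hC
  refine ⟨A, B, C, h1, h2, h3, hA.2, hB.2, rfl, hmin, h4, h5, fun Z => ?_, fun Z => ?_⟩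
  · rw [dform_eq h1, dform_eq h3]
    have h := so_dual h1 (dg_of_herm h1.isHermitian) (dg_of_herm h3.isHermitian)
      (fun i => h1.eigenvalues_pos i) (fun i => h3.eigenvalues_pos i) hA.2 (outL W B)
      (fun X => by
        show outp W Xᴴ B = (outp W X B)ᴴ
        rw [← outp_conj, hB.1.isHermitian.eq])
      (outL_trace W hW hB.2) (f := sA / TC) (by positivity)
      (fun A' hA' ht' => by
        have := h6 A' ⟨hA', ht'⟩
        rw [div_mul_eq_mul_div, le_div_iff₀ hTC, mul_comm]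
        exact this)
      (EA W B) (fun X Z => (trace_outC_dualA W X B Z).symm) Z
    have e1 : EAc W A B Z = EA W B Z - (A * EA W B Z).trace • (1 : Matrix ι ι ℂ) := by
      unfold EAc
      rw [outp_eq, trace_outC_dualA W A B Z]
      rfl
    rw [e1]
    exact h
  · rw [dform_eq h2, dform_eq h3]
    have h := so_dual h2 (dg_of_herm h2.isHermitian) (dg_of_herm h3.isHermitian)
      (fun i => h2.eigenvalues_pos i) (fun i => h3.eigenvalues_pos i) hB.2 (outR W A)
      (fun X => by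
        show outp W A Xᴴ = (outp W A X)ᴴ
        rw [← outp_conj, hA.1.isHermitian.eq])
      (outR_trace W hW hA.2) (f := sB / TC) (by positivity)
      (fun A' hA' ht' => by
        have := h7 A' ⟨hA', ht'⟩
        rw [div_mul_eq_mul_div, le_div_iff₀ hTC, mul_comm]
        exact this)
      (EB W A) (fun X Z => (trace_outC_dualB W A X Z).symm) Z
    have e1 : EBc W A B Z = EB W A Z - (B * EB W A Z).trace • (1 : Matrix ι' ι' ℂ) := by
      unfold EBc
      rw [outp_eq, trace_outC_dualB W A B Z]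
      rfl
    rw [e1]
    exact h

end

end Vale.Agent.P369.H993

/-- package VAR -/
theorem Vale.Agent.P369.FD.thm_VAR : Vale.Agent.P369.FD.S_VAR := Vale.Agent.P369.H993.thm_VAR'
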