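import Vale.Agent.P369.H993.Exist
import Vale.Agent.P369.H587.Dp
import Vale.Agent.P369.FD.Stmts

/-!
P369, FD track (helper993): the variational core for the functional `Fun` of `FD.Stmts`:
existence of a minimiser, positivity, both Euler-Lagrange equations, both global inequalities.
-/

set_option linter.all false

namespace Vale.Agent.P369.H993

open Matrix Finset Filter
open Vale.Agent.P369.H63 (rel Dg dg_of_herm)
open Vale.Agent.P369.FD (outp EA EB EAc EBc Lg IsDM Fun ptrR ptrL)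
open Vale.P369.H587
open scoped ComplexOrder Topology Kronecker

noncomputable section

variable {ι ι' κ ε : Type} [Fintype ι] [DecidableEq ι] [Fintype ι'] [DecidableEq ι']
  [Fintype κ] [DecidableEq κ] [Fintype ε] [DecidableEq ε]

theorem outp_eq (W : Matrix (κ × ε) (ι × ι') ℂ) (A : Matrix ι ι ℂ) (B : Matrix ι' ι' ℂ) :
    outp W A B = outC W A B := rfl

theorem EA_eq (W : Matrix (κ × ε) (ι × ι') ℂ) (B : Matrix ι' ι' ℂ) (Z : Matrix κ κ ℂ) :
    EA W B Z = dualA W B Z := rfl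

theorem EB_eq (W : Matrix (κ × ε) (ι × ι') ℂ) (A : Matrix ι ι ℂ) (Z : Matrix κ κ ℂ) :
    EB W A Z = dualB W A Z := rfl

/-- the output as a linear map of the first input -/
def outL (W : Matrix (κ × ε) (ι × ι') ℂ) (B : Matrix ι' ι' ℂ) :
    Matrix ι ι ℂ →ₗ[ℂ] Matrix κ κ ℂ where
  toFun X := outp W X B
  map_add' X Y := by
    unfold outp
    rw [Matrix.add_kronecker, Matrix.mul_add, Matrix.add_mul]
    ext i j
    simp only [ptrR, Matrix.add_apply, Finset.sum_add_distrib]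
  map_smul' c X := by
    unfold outp
    rw [Matrix.smul_kronecker, Matrix.mul_smul, Matrix.smul_mul]
    ext i j
    simp only [ptrR, Matrix.smul_apply, smul_eq_mul, Finset.mul_sum, RingHom.id_apply]

/-- the output as a linear map of the second input -/
def outR (W : Matrix (κ × ε) (ι × ι') ℂ) (A : Matrix ι ι ℂ) :
    Matrix ι' ι' ℂ →ₗ[ℂ] Matrix κ κ ℂ where
  toFun X := outp W A X
  map_add' X Y := by
    unfold outp
    rw [Matrix.kronecker_add, Matrix.mul_add, Matrix.add_mul]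
    ext i j
    simp only [ptrR, Matrix.add_apply, Finset.sum_add_distrib]
  map_smul' c X := by
    unfold outp
    rw [Matrix.kronecker_smul, Matrix.mul_smul, Matrix.smul_mul]
    ext i j
    simp only [ptrR, Matrix.smul_apply, smul_eq_mul, Finset.mul_sum, RingHom.id_apply]

@[simp] theorem outL_apply (W : Matrix (κ × ε) (ι × ι') ℂ) (B : Matrix ι' ι' ℂ) (X : Matrix ι ι ℂ) :
    outL W B X = outp W X B := rfl

@[simp] theorem outR_apply (W : Matrix (κ × ε) (ι × ι') ℂ) (A : Matrix ι ι ℂ)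
    (X : Matrix ι' ι' ℂ) : outR W A X = outp W A X := rfl

theorem continuous_outp (W : Matrix (κ × ε) (ι × ι') ℂ) :
    Continuous (fun p : Matrix ι ι ℂ × Matrix ι' ι' ℂ => outp W p.1 p.2) := by
  have h1 : Continuous (fun p : Matrix ι ι ℂ × Matrix ι' ι' ℂ => p.1 ⊗ₖ p.2) := by
    refine continuous_matrix fun x y => ?_
    simp only [Matrix.kroneckerMap_apply]
    fun_prop
  have h2 : Continuous (fun p : Matrix ι ι ℂ × Matrix ι' ι' ℂ => W * (p.1 ⊗ₖ p.2) * Wᴴ) := by
    fun_prop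
  refine continuous_matrix fun x y => ?_
  simp only [outp, ptrR]
  exact continuous_finset_sum _ fun l _ =>
    ((continuous_apply (y, l)).comp ((continuous_apply (x, l)).comp h2))

theorem isDM_iff {A : Matrix ι ι ℂ} : IsDM A ↔ A ∈ dens ι := Iff.rfl

theorem posDef_e {e : ℝ} (he : 0 < e) : (((e : ℝ) : ℂ) • (1 : Matrix κ κ ℂ)).PosDef :=
  Matrix.PosDef.smul Matrix.PosDef.one (show (0 : ℂ) < (e : ℂ) by exact_mod_cast he)

/-- existence of a minimiser of `Fun` -/
theorem fun_min [Nonempty ι] [Nonempty ι'] (W : Matrix (κ × ε) (ι × ι') ℂ) (TC sA sB : ℝ) {e : ℝ}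
    (PA : Matrix ι ι ℂ) (PB : Matrix ι' ι' ℂ) :
    ∃ (A : Matrix ι ι ℂ) (B : Matrix ι' ι' ℂ), IsDM A ∧ IsDM B ∧
      ∀ A' B', IsDM A' → IsDM B' → Fun W TC sA sB e PA PB A B ≤ Fun W TC sA sB e PA PB A' B' := by
  obtain ⟨A, hA, B, hB, h⟩ := exists_min_fun
    (C := fun A B => outp W A B + ((e : ℝ) : ℂ) • (1 : Matrix κ κ ℂ))
    ((continuous_outp W).add continuous_const)
    (fun A hA B hB => (outC_posSemidef W A B hA.1 hB.1).isHermitian.add
      (by simp [Matrix.IsHermitian]))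
    TC sA sB PA PB (F := fun A B => Fun W TC sA sB e PA PB A B)
    (fun A _ B _ => by
      show Fun W TC sA sB e PA PB A B = _
      unfold Fun
      rw [Matrix.trace_mul_comm PA A, Matrix.trace_mul_comm PB B]
      rfl)
  exact ⟨A, B, hA, hB, fun A' B' hA' hB' => h A' hA' B' hB'⟩

/-- a minimiser of `Fun` is positive definite and satisfies both Euler-Lagrange equations and both
global inequalities -/
theorem fun_gibbs [Nonempty ι] [Nonempty ι'] {W : Matrix (κ × ε) (ι × ι') ℂ} (hW : Wᴴ * W = 1)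
    {TC sA sB e : ℝ} (hT : 0 ≤ TC) (hsA : 0 < sA) (hsB : 0 < sB) (he : 0 < e)
    {PA : Matrix ι ι ℂ} {PB : Matrix ι' ι' ℂ} (hPA : PA.IsHermitian) (hPB : PB.IsHermitian)
    {A : Matrix ι ι ℂ} {B : Matrix ι' ι' ℂ} (hA : IsDM A) (hB : IsDM B)
    (hmin : ∀ A' B', IsDM A' → IsDM B' →
      Fun W TC sA sB e PA PB A B ≤ Fun W TC sA sB e PA PB A' B')
    {C : Matrix κ κ ℂ} (hC : C = outp W A B + ((e : ℝ) : ℂ) • (1 : Matrix κ κ ℂ)) :
    A.PosDef ∧ B.PosDef ∧ C.PosDef ∧
    (∃ l : ℝ, ((sA : ℝ) : ℂ) • Lg A = ((TC : ℝ) : ℂ) • EA W B (Lg C) - PA + ((l : ℝ) : ℂ) • 1) ∧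
    (∃ l : ℝ, ((sB : ℝ) : ℂ) • Lg B = ((TC : ℝ) : ℂ) • EB W A (Lg C) - PB + ((l : ℝ) : ℂ) • 1) ∧
    (∀ A', IsDM A' → TC * rel (C + outL W B (A' - A)) C ≤ sA * rel A' A) ∧
    (∀ B', IsDM B' → TC * rel (C + outR W A (B' - B)) C ≤ sB * rel B' B) := by
  have hCpos : C.PosDef := by
    rw [hC]
    exact Matrix.PosDef.posSemidef_add (outC_posSemidef W A B hA.1 hB.1) (posDef_e he)
  obtain ⟨h1, h2, -, h3⟩ := var (Φ := outL W B) (Φd := EA W B)
    (fun X Z => trace_outC_dualA W X B Z)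
    (fun X hX => outC_posSemidef W X B hX hB.1)
    (fun Z hZ => by
      show (EA W B Z)ᴴ = EA W B Z
      rw [EA_eq, ← dualA_conjTranspose W B hB.1.isHermitian.eq, hZ.eq])
    (c := 1) (fun X _ hXt => outC_trace W X B hW hXt hB.2)
    (posDef_e he) hPA hsA hT (F := fun X => Fun W TC sA sB e PA PB X B - ((PB * B).trace.re - sB * sE B))
    (fun X _ _ => by
      show Fun W TC sA sB e PA PB X B - ((PB * B).trace.re - sB * sE B) = _
      unfold Fun
      rw [Matrix.trace_mul_comm PA X]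
      show TC * sE (outp W X B + ((e : ℝ) : ℂ) • (1 : Matrix κ κ ℂ)) + (X * PA).trace.re +
        (PB * B).trace.re - sA * sE X - sB * sE B - ((PB * B).trace.re - sB * sE B) =
        TC * sE (outp W X B + ((e : ℝ) : ℂ) • (1 : Matrix κ κ ℂ)) + (X * PA).trace.re - sA * sE X
      ring)
    hA.1 hA.2 (fun X hX hXt => sub_le_sub_right (hmin X B ⟨hX, hXt⟩ hB) _)
  obtain ⟨h4, h5, -, h6⟩ := var (Φ := outR W A) (Φd := EB W A)
    (fun X Z => trace_outC_dualB W A X Z)
    (fun X hX => outC_posSemidef W A X hA.1 hX)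
    (fun Z hZ => by
      show (EB W A Z)ᴴ = EB W A Z
      rw [EB_eq, ← dualB_conjTranspose W A hA.1.isHermitian.eq, hZ.eq])
    (c := 1) (fun X _ hXt => outC_trace W A X hW hA.2 hXt)
    (posDef_e he) hPB hsB hT (F := fun X => Fun W TC sA sB e PA PB A X - ((PA * A).trace.re - sA * sE A))
    (fun X _ _ => by
      show Fun W TC sA sB e PA PB A X - ((PA * A).trace.re - sA * sE A) = _
      unfold Fun
      rw [Matrix.trace_mul_comm PB X]
      show TC * sE (outp W A X + ((e : ℝ) : ℂ) • (1 : Matrix κ κ ℂ)) + (PA * A).trace.re +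
        (X * PB).trace.re - sA * sE A - sB * sE X - ((PA * A).trace.re - sA * sE A) =
        TC * sE (outp W A X + ((e : ℝ) : ℂ) • (1 : Matrix κ κ ℂ)) + (X * PB).trace.re - sB * sE X
      ring)
    hB.1 hB.2 (fun X hX hXt => sub_le_sub_right (hmin A X hA ⟨hX, hXt⟩) _)
  simp only [outL_apply, outR_apply, ← hC] at h2 h3 h5 h6
  refine ⟨h1, h4, hCpos, h2, h5, fun A' hA' => ?_, fun B' hB' => ?_⟩
  · have e1 : C + outL W B (A' - A) = outp W A' B + ((e : ℝ) : ℂ) • (1 : Matrix κ κ ℂ) := by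
      rw [map_sub, outL_apply, outL_apply, hC]
      abel
    rw [e1]
    exact h3 A' hA'.1 hA'.2
  · have e1 : C + outR W A (B' - B) = outp W A B' + ((e : ℝ) : ℂ) • (1 : Matrix κ κ ℂ) := by
      rw [map_sub, outR_apply, outR_apply, hC]
      abel
    rw [e1]
    exact h6 B' hB'.1 hB'.2

end

end Vale.Agent.P369.H993
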