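import Vale.Agent.P369.H993.Var

/-!
P369, finite matrices (helper993): density matrices form a compact set, the entropy is continuous,
and a continuous functional of two density matrices has a minimiser.
-/

namespace Vale.Agent.P369.H993

open Matrix Finset Filter
open Vale.Agent.P369.H63
open scoped ComplexOrder Topology

noncomputable section

variable {ι κ : Type} [Fintype ι] [DecidableEq ι] [Fintype κ] [DecidableEq κ]

/-- density matrices -/
def dens (ι : Type) [Fintype ι] : Set (Matrix ι ι ℂ) := {X | X.PosSemidef ∧ X.trace = 1}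

omit [DecidableEq ι] in
theorem isClosed_posSemidef : IsClosed {X : Matrix ι ι ℂ | X.PosSemidef} := by
  have h : {X : Matrix ι ι ℂ | X.PosSemidef} =
      {X : Matrix ι ι ℂ | Xᴴ = X} ∩ ⋂ v : ι → ℂ, {X : Matrix ι ι ℂ | 0 ≤ star v ⬝ᵥ (X *ᵥ v)} := by
    ext X
    simp only [Set.mem_ofPred_eq, Set.mem_inter_iff, Set.mem_iInter]
    rw [Matrix.posSemidef_iff_dotProduct_mulVec]
    rfl
  rw [h]
  refine IsClosed.inter (isClosed_eq (by fun_prop) continuous_id) (isClosed_iInter fun v => ?_)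
  have h1 : Continuous (fun X : Matrix ι ι ℂ => star v ⬝ᵥ (X *ᵥ v)) := by fun_prop
  exact isClosed_le continuous_const h1

omit [DecidableEq ι] in
/-- the entries of a density matrix are bounded by `1` -/
theorem norm_entry_le {X : Matrix ι ι ℂ} (hX : X ∈ dens ι) (i j : ι) : ‖X i j‖ ≤ 1 := by
  classical
  obtain ⟨hp, ht⟩ := hX
  have hd : ∀ i, 0 ≤ (X i i).re := fun i => by
    have := hp.diag_nonneg (i := i)
    exact (Complex.le_def.1 this).1
  have hdi : ∀ i, (X i i).im = 0 := fun i => by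
    have := hp.diag_nonneg (i := i)
    exact (Complex.le_def.1 this).2.symm
  have hs : ∑ i, (X i i).re = 1 := by
    have h := congrArg Complex.re ht
    simpa [Matrix.trace, Complex.re_sum] using h
  have hle : ∀ i, (X i i).re ≤ 1 := fun i => by
    rw [← hs]
    exact Finset.single_le_sum (f := fun i => (X i i).re) (fun j _ => hd j) (Finset.mem_univ i)
  have h2 : ‖X i j‖ ^ 2 ≤ (X i i).re * (X j j).re := by
    have hdet := (hp.submatrix ![i, j]).det_nonneg
    rw [Matrix.det_fin_two] at hdet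
    simp only [submatrix_apply, cons_val_zero, cons_val_one] at hdet
    have hji : X j i = star (X i j) := (hp.isHermitian.apply j i).symm ▸ rfl
    have h3 := (Complex.le_def.1 hdet).1
    rw [hji, Complex.star_def, Complex.mul_conj] at h3
    simp only [Complex.zero_re, Complex.sub_re, Complex.mul_re, hdi, mul_zero, sub_zero,
      Complex.ofReal_re, Complex.normSq_eq_norm_sq] at h3
    linarith
  have h4 : (X i i).re * (X j j).re ≤ 1 := mul_le_one₀ (hle i) (hd j) (hle j)
  have h5 : ‖X i j‖ ^ 2 ≤ 1 := h2.trans h4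
  exact (sq_le_one_iff₀ (norm_nonneg _)).1 h5

omit [DecidableEq ι] in
theorem isCompact_dens : IsCompact (dens ι) := by
  have h1 : IsCompact (Set.univ.pi fun _ : ι => Set.univ.pi fun _ : ι =>
      Metric.closedBall (0 : ℂ) 1) :=
    isCompact_univ_pi fun _ => isCompact_univ_pi fun _ => isCompact_closedBall _ _
  refine h1.of_isClosed_subset ?_ ?_
  · exact isClosed_posSemidef.inter
      (isClosed_eq (by fun_prop : Continuous fun X : Matrix ι ι ℂ => X.trace) continuous_const)
  · intro X hX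
    simp only [Set.mem_pi, Set.mem_univ, forall_true_left, mem_closedBall_zero_iff]
    exact fun i j => norm_entry_le hX i j

theorem dens_nonempty [Nonempty ι] : (dens ι).Nonempty := by
  obtain ⟨σ, z, h1, h2, -⟩ := exists_gibbs (ι := ι) (H := 0) (by simp [Matrix.IsHermitian])
  exact ⟨σ, h1.posSemidef, h2⟩

section cont
open scoped Matrix.Norms.L2Operator

theorem continuousOn_cfc_herm {f : ℝ → ℝ} (hf : Continuous f) :
    ContinuousOn (fun A : Matrix ι ι ℂ => cfc f A) {A | A.IsHermitian} :=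
  ContinuousOn.cfc_of_mem_nhdsSet (s := Set.univ) f Filter.univ_mem continuousOn_id
    (fun _ hx => hx.isSelfAdjoint) hf.continuousOn

theorem continuousOn_cfc_posDef {f : ℝ → ℝ} (hf : ContinuousOn f (Set.Ioi 0)) :
    ContinuousOn (fun A : Matrix ι ι ℂ => cfc f A) {A | A.PosDef} := by
  refine ContinuousOn.cfc_of_mem_nhdsSet (s := Set.Ioi 0) f ?_ continuousOn_id
    (fun x hx => hx.isHermitian.isSelfAdjoint) hf
  rw [isOpen_Ioi.mem_nhdsSet]
  simp only [Set.iUnion_subset_iff]
  intro A hA x hx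
  have hH : A.IsHermitian := hA.isHermitian
  change x ∈ spectrum ℝ A at hx
  rw [hH.spectrum_real_eq_range_eigenvalues] at hx
  obtain ⟨i, rfl⟩ := hx
  exact hA.eigenvalues_pos i

end cont

theorem continuousOn_sE : ContinuousOn (sE : Matrix ι ι ℂ → ℝ) {A | A.IsHermitian} := by
  have h1 := continuousOn_cfc_herm (ι := ι) Real.continuous_negMulLog
  have h2 : Continuous (fun X : Matrix ι ι ℂ => X.trace.re) := by fun_prop
  exact h2.comp_continuousOn h1

/-- a continuous functional of two density matrices has a minimiser -/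
theorem exists_min [Nonempty ι] [Nonempty κ] {F : Matrix ι ι ℂ → Matrix κ κ ℂ → ℝ}
    (hF : ContinuousOn (fun p : Matrix ι ι ℂ × Matrix κ κ ℂ => F p.1 p.2) (dens ι ×ˢ dens κ)) :
    ∃ A ∈ dens ι, ∃ B ∈ dens κ, ∀ A' ∈ dens ι, ∀ B' ∈ dens κ, F A B ≤ F A' B' := by
  obtain ⟨x, hx, hmin⟩ := (isCompact_dens.prod isCompact_dens).exists_isMinOn
    (dens_nonempty.prod dens_nonempty) hF
  exact ⟨x.1, hx.1, x.2, hx.2, fun A' hA' B' hB' =>
    (isMinOn_iff.1 hmin) (A', B') (Set.mk_mem_prod hA' hB')⟩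

/-- existence of the minimiser of the concrete functional -/
theorem exists_min_fun {μ : Type} [Fintype μ] [DecidableEq μ] [Nonempty ι] [Nonempty κ]
    {C : Matrix ι ι ℂ → Matrix κ κ ℂ → Matrix μ μ ℂ}
    (hC : Continuous (fun p : Matrix ι ι ℂ × Matrix κ κ ℂ => C p.1 p.2))
    (hH : ∀ A ∈ dens ι, ∀ B ∈ dens κ, (C A B).IsHermitian)
    (T s₁ s₂ : ℝ) (L₁ : Matrix ι ι ℂ) (L₂ : Matrix κ κ ℂ) {F : Matrix ι ι ℂ → Matrix κ κ ℂ → ℝ}
    (hF : ∀ A ∈ dens ι, ∀ B ∈ dens κ, F A B = T * sE (C A B) + (A * L₁).trace.re +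
      (B * L₂).trace.re - s₁ * sE A - s₂ * sE B) :
    ∃ A ∈ dens ι, ∃ B ∈ dens κ, ∀ A' ∈ dens ι, ∀ B' ∈ dens κ, F A B ≤ F A' B' := by
  apply exists_min
  have h1 : ContinuousOn (fun p : Matrix ι ι ℂ × Matrix κ κ ℂ => sE (C p.1 p.2))
      (dens ι ×ˢ dens κ) :=
    continuousOn_sE.comp hC.continuousOn fun p hp => hH p.1 hp.1 p.2 hp.2
  have h2 : ContinuousOn (fun p : Matrix ι ι ℂ × Matrix κ κ ℂ => sE p.1) (dens ι ×ˢ dens κ) :=
    continuousOn_sE.comp continuous_fst.continuousOn fun p hp => hp.1.1.isHermitian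
  have h3 : ContinuousOn (fun p : Matrix ι ι ℂ × Matrix κ κ ℂ => sE p.2) (dens ι ×ˢ dens κ) :=
    continuousOn_sE.comp continuous_snd.continuousOn fun p hp => hp.2.1.isHermitian
  have h4 : Continuous (fun p : Matrix ι ι ℂ × Matrix κ κ ℂ => (p.1 * L₁).trace.re) := by fun_prop
  have h5 : Continuous (fun p : Matrix ι ι ℂ × Matrix κ κ ℂ => (p.2 * L₂).trace.re) := by fun_prop
  have h6 : ContinuousOn (fun p : Matrix ι ι ℂ × Matrix κ κ ℂ => T * sE (C p.1 p.2) +
      (p.1 * L₁).trace.re + (p.2 * L₂).trace.re - s₁ * sE p.1 - s₂ * sE p.2) (dens ι ×ˢ dens κ) :=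
    (((((continuousOn_const.mul h1).add h4.continuousOn).add h5.continuousOn).sub
      (continuousOn_const.mul h2)).sub (continuousOn_const.mul h3))
  exact h6.congr fun p hp => hF p.1 hp.1 p.2 hp.2

end

end Vale.Agent.P369.H993
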