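import Vale.Agent.P369.H63.Rel

/-!
P369, finite matrices (helper993): the variational core of the finite-matrix track.

`F X = T S(Phi X + E) + Re Tr (X L) - s S(X)` is minimised over density matrices `X`, where `Phi` is
linear, positive, with constant trace on density matrices, and `E` is positive definite.  A
minimiser `A` is the Gibbs state of its own effective Hamiltonian.  So `A` is positive definite, the
Euler-Lagrange equation holds, and `F X - F A = s rel X A - T rel (Phi X + E) (Phi A + E)` for all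
density matrices `X`.
-/

namespace Vale.Agent.P369.H993

open Matrix Finset
open Vale.Agent.P369.H63
open scoped ComplexOrder Topology

noncomputable section

variable {ι κ : Type} [Fintype ι] [DecidableEq ι] [Fintype κ] [DecidableEq κ]

/-- von Neumann entropy of a matrix -/
def sE (X : Matrix ι ι ℂ) : ℝ := (cfc Real.negMulLog X).trace.re

theorem sE_eq {A U : Matrix ι ι ℂ} {p : ι → ℝ} (h : Dg A U p) :
    sE A = ∑ i, Real.negMulLog (p i) := by
  unfold sE
  rw [h.cfc, Matrix.mul_assoc, Matrix.trace_mul_comm, Matrix.mul_assoc, h.ct, Matrix.mul_one,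
    Matrix.trace_diagonal]
  rw [Complex.re_sum]
  simp

theorem mul_log_trace {A : Matrix ι ι ℂ} (hA : A.IsHermitian) :
    (A * cfc Real.log A).trace.re = - sE A := by
  have h := dg_of_herm hA
  rw [sE_eq h]
  have e1 : A * cfc Real.log A = (hA.eigenvectorUnitary : Matrix ι ι ℂ) *
      diagonal (fun i => ((hA.eigenvalues i * Real.log (hA.eigenvalues i) : ℝ) : ℂ)) *
      (hA.eigenvectorUnitary : Matrix ι ι ℂ)ᴴ := by
    rw [h.cfc]
    conv_lhs =>
      enter [1]
      rw [h.eq]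
    have : (hA.eigenvectorUnitary : Matrix ι ι ℂ) * diagonal (fun i => (hA.eigenvalues i : ℂ)) *
        (hA.eigenvectorUnitary : Matrix ι ι ℂ)ᴴ *
        ((hA.eigenvectorUnitary : Matrix ι ι ℂ) *
          diagonal (fun i => ((Real.log (hA.eigenvalues i) : ℝ) : ℂ)) *
          (hA.eigenvectorUnitary : Matrix ι ι ℂ)ᴴ) =
        (hA.eigenvectorUnitary : Matrix ι ι ℂ) * (diagonal (fun i => (hA.eigenvalues i : ℂ)) *
        (((hA.eigenvectorUnitary : Matrix ι ι ℂ)ᴴ * (hA.eigenvectorUnitary : Matrix ι ι ℂ)) *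
          diagonal (fun i => ((Real.log (hA.eigenvalues i) : ℝ) : ℂ)))) *
          (hA.eigenvectorUnitary : Matrix ι ι ℂ)ᴴ := by
      simp only [Matrix.mul_assoc]
    rw [this, h.ct, Matrix.one_mul, diagonal_mul_diagonal]
    push_cast
    rfl
  rw [e1, Matrix.mul_assoc, Matrix.trace_mul_comm, Matrix.mul_assoc, h.ct, Matrix.mul_one,
    Matrix.trace_diagonal, Complex.re_sum, ← Finset.sum_neg_distrib]
  refine Finset.sum_congr rfl fun i _ => ?_
  rw [Complex.ofReal_re, Real.negMulLog]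
  ring

theorem rel_eq_ent {A B : Matrix ι ι ℂ} (hA : A.IsHermitian) :
    rel A B = - sE A - (A * cfc Real.log B).trace.re := by
  unfold rel
  rw [Matrix.mul_sub, Matrix.trace_sub, Complex.sub_re, mul_log_trace hA]

theorem rel_self (A : Matrix ι ι ℂ) : rel A A = 0 := by
  unfold rel
  rw [sub_self, Matrix.mul_zero, Matrix.trace_zero, Complex.zero_re]

/-- Klein's inequality -/
theorem rel_ge {A B : Matrix ι ι ℂ} (hA : A.PosSemidef) (hB : B.PosDef) :
    A.trace.re - B.trace.re ≤ rel A B := by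
  rw [rel_eq (dg_of_herm hA.isHermitian) (dg_of_herm hB.isHermitian)]
  have : 0 ≤ ∑ i, ∑ j, kk (hA.isHermitian.eigenvalues j) (hB.isHermitian.eigenvalues i) *
      ‖((hB.isHermitian.eigenvectorUnitary : Matrix ι ι ℂ)ᴴ * (A - B) *
        (hA.isHermitian.eigenvectorUnitary : Matrix ι ι ℂ)) i j‖ ^ 2 :=
    Finset.sum_nonneg fun i _ => Finset.sum_nonneg fun j _ =>
      mul_nonneg (kk_pos (hA.eigenvalues_nonneg j) (hB.eigenvalues_pos i)).le (sq_nonneg _)
  linarith

/-- the equality case of Klein's inequality -/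
theorem eq_of_rel {A B : Matrix ι ι ℂ} (hA : A.PosSemidef) (hB : B.PosDef)
    (h : rel A B ≤ A.trace.re - B.trace.re) : A = B := by
  rw [rel_eq (dg_of_herm hA.isHermitian) (dg_of_herm hB.isHermitian)] at h
  have h0 : ∀ i j, 0 ≤ kk (hA.isHermitian.eigenvalues j) (hB.isHermitian.eigenvalues i) *
      ‖((hB.isHermitian.eigenvectorUnitary : Matrix ι ι ℂ)ᴴ * (A - B) *
        (hA.isHermitian.eigenvectorUnitary : Matrix ι ι ℂ)) i j‖ ^ 2 := fun i j =>
      mul_nonneg (kk_pos (hA.eigenvalues_nonneg j) (hB.eigenvalues_pos i)).le (sq_nonneg _)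
  have h1 : ∑ i, ∑ j, kk (hA.isHermitian.eigenvalues j) (hB.isHermitian.eigenvalues i) *
      ‖((hB.isHermitian.eigenvectorUnitary : Matrix ι ι ℂ)ᴴ * (A - B) *
        (hA.isHermitian.eigenvectorUnitary : Matrix ι ι ℂ)) i j‖ ^ 2 = 0 :=
    le_antisymm (by linarith) (Finset.sum_nonneg fun i _ => Finset.sum_nonneg fun j _ => h0 i j)
  have h2 : (hB.isHermitian.eigenvectorUnitary : Matrix ι ι ℂ)ᴴ * (A - B) *
        (hA.isHermitian.eigenvectorUnitary : Matrix ι ι ℂ) = 0 := by
    ext i j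
    have h3 := (Finset.sum_eq_zero_iff_of_nonneg fun i _ =>
      Finset.sum_nonneg fun j _ => h0 i j).1 h1 i (Finset.mem_univ i)
    have h4 := (Finset.sum_eq_zero_iff_of_nonneg fun j _ => h0 i j).1 h3 j (Finset.mem_univ j)
    rcases mul_eq_zero.1 h4 with h5 | h5
    · exact absurd h5 (kk_pos (hA.eigenvalues_nonneg j) (hB.eigenvalues_pos i)).ne'
    · simpa using h5
  have hU := dg_of_herm hA.isHermitian
  have hV := dg_of_herm hB.isHermitian
  have h5 : A - B = 0 := by
    have h6 : (hB.isHermitian.eigenvectorUnitary : Matrix ι ι ℂ) *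
        ((hB.isHermitian.eigenvectorUnitary : Matrix ι ι ℂ)ᴴ * (A - B) *
        (hA.isHermitian.eigenvectorUnitary : Matrix ι ι ℂ)) *
        (hA.isHermitian.eigenvectorUnitary : Matrix ι ι ℂ)ᴴ = A - B := by
      calc (hB.isHermitian.eigenvectorUnitary : Matrix ι ι ℂ) *
        ((hB.isHermitian.eigenvectorUnitary : Matrix ι ι ℂ)ᴴ * (A - B) *
        (hA.isHermitian.eigenvectorUnitary : Matrix ι ι ℂ)) *
        (hA.isHermitian.eigenvectorUnitary : Matrix ι ι ℂ)ᴴ =
          ((hB.isHermitian.eigenvectorUnitary : Matrix ι ι ℂ) *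
          (hB.isHermitian.eigenvectorUnitary : Matrix ι ι ℂ)ᴴ) * (A - B) *
          ((hA.isHermitian.eigenvectorUnitary : Matrix ι ι ℂ) *
          (hA.isHermitian.eigenvectorUnitary : Matrix ι ι ℂ)ᴴ) := by
            simp only [Matrix.mul_assoc]
        _ = A - B := by rw [hU.tc, hV.tc, Matrix.one_mul, Matrix.mul_one]
    rw [← h6, h2, Matrix.mul_zero, Matrix.zero_mul]
  exact sub_eq_zero.1 h5

/-- the Gibbs state of a Hermitian matrix -/
theorem exists_gibbs [Nonempty ι] {H : Matrix ι ι ℂ} (hH : H.IsHermitian) :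
    ∃ (σ : Matrix ι ι ℂ) (z : ℝ), σ.PosDef ∧ σ.trace = 1 ∧
      cfc Real.log σ = - H - (z : ℂ) • (1 : Matrix ι ι ℂ) := by
  have h := dg_of_herm hH
  set U : Matrix ι ι ℂ := (hH.eigenvectorUnitary : Matrix ι ι ℂ) with hU
  set p := hH.eigenvalues with hp
  set Z : ℝ := ∑ i, Real.exp (- p i) with hZ
  have hZ0 : 0 < Z := Finset.sum_pos (fun i _ => Real.exp_pos _) Finset.univ_nonempty
  set q : ι → ℝ := fun i => Real.exp (- p i) / Z with hq
  have hq0 : ∀ i, 0 < q i := fun i => div_pos (Real.exp_pos _) hZ0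
  have hσ : Dg (U * diagonal (fun i => (q i : ℂ)) * Uᴴ) U q := ⟨h.ct, h.tc, rfl⟩
  refine ⟨U * diagonal (fun i => (q i : ℂ)) * Uᴴ, Real.log Z, ?_, ?_, ?_⟩
  · have h1 : (diagonal (fun i => (q i : ℂ)) : Matrix ι ι ℂ).PosDef := by
      apply Matrix.PosDef.diagonal
      intro i
      exact_mod_cast hq0 i
    have h2 : Function.Injective (Uᴴ).mulVec := by
      intro x y hxy
      have := congrArg (fun v => U.mulVec v) hxy
      simpa only [Matrix.mulVec_mulVec, h.tc, Matrix.one_mulVec] using this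
    have h3 := h1.conjTranspose_mul_mul_same h2
    rwa [conjTranspose_conjTranspose] at h3
  · rw [hσ.trace, ← Complex.ofReal_sum, hq, ← Finset.sum_div, div_self hZ0.ne', Complex.ofReal_one]
  · rw [hσ.cfc]
    have h1 : (fun i => ((Real.log (q i) : ℝ) : ℂ)) = fun i => - (p i : ℂ) - (Real.log Z : ℂ) := by
      funext i
      rw [hq]
      simp only
      rw [Real.log_div (Real.exp_pos _).ne' hZ0.ne', Real.log_exp]
      push_cast
      ring
    rw [h1]
    have h2 : (diagonal (fun i => - (p i : ℂ) - (Real.log Z : ℂ)) : Matrix ι ι ℂ) =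
        - diagonal (fun i => (p i : ℂ)) - (Real.log Z : ℂ) • (1 : Matrix ι ι ℂ) := by
      ext i j
      by_cases hij : i = j
      · subst hij
        simp
      · simp [hij]
    rw [h2, Matrix.mul_sub, Matrix.sub_mul, Matrix.mul_neg, Matrix.neg_mul, Matrix.mul_smul,
      Matrix.smul_mul, Matrix.mul_one, h.tc, ← h.eq]

/-- **the variational core**: see the header. -/
theorem var [Nonempty ι] {Φ : Matrix ι ι ℂ →ₗ[ℂ] Matrix κ κ ℂ} {Φd : Matrix κ κ ℂ → Matrix ι ι ℂ}
    (hdual : ∀ X Z, (Φ X * Z).trace = (X * Φd Z).trace)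
    (hpos : ∀ X, X.PosSemidef → (Φ X).PosSemidef)
    (hdH : ∀ Z, Z.IsHermitian → (Φd Z).IsHermitian)
    {c : ℂ} (htr : ∀ X, X.PosSemidef → X.trace = 1 → (Φ X).trace = c)
    {E : Matrix κ κ ℂ} (hE : E.PosDef) {L : Matrix ι ι ℂ} (hL : L.IsHermitian)
    {s T : ℝ} (hs : 0 < s) (hT : 0 ≤ T) {F : Matrix ι ι ℂ → ℝ}
    (hF : ∀ X, X.PosSemidef → X.trace = 1 →
      F X = T * sE (Φ X + E) + (X * L).trace.re - s * sE X)
    {A : Matrix ι ι ℂ} (hA : A.PosSemidef) (hAt : A.trace = 1)
    (hmin : ∀ X, X.PosSemidef → X.trace = 1 → F A ≤ F X) :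
    A.PosDef ∧
    (∃ c0 : ℝ, (s : ℂ) • cfc Real.log A =
      (T : ℂ) • Φd (cfc Real.log (Φ A + E)) - L + (c0 : ℂ) • (1 : Matrix ι ι ℂ)) ∧
    (∀ X, X.PosSemidef → X.trace = 1 →
      F X - F A = s * rel X A - T * rel (Φ X + E) (Φ A + E)) ∧
    ∀ X, X.PosSemidef → X.trace = 1 → T * rel (Φ X + E) (Φ A + E) ≤ s * rel X A := by
  have hC : ∀ X, X.PosSemidef → (Φ X + E).PosDef := fun X hX => Matrix.PosDef.posSemidef_add (hpos X hX) hE
  set C : Matrix κ κ ℂ := Φ A + E with hCdef
  set V : Matrix κ κ ℂ := cfc Real.log C with hV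
  have hVH : V.IsHermitian := cfc_predicate _ _
  set K : Matrix ι ι ℂ := L - (T : ℂ) • Φd V with hK
  have hKH : K.IsHermitian := by
    apply hL.sub
    unfold Matrix.IsHermitian
    rw [conjTranspose_smul, (hdH V hVH).eq]
    simp
  have hHH : (((1 / s : ℝ) : ℂ) • K).IsHermitian := by
    unfold Matrix.IsHermitian
    rw [conjTranspose_smul, hKH.eq]
    simp
  obtain ⟨σ, z, hσ, hσt, hσl⟩ := exists_gibbs hHH
  have hs0 : (s : ℂ) ≠ 0 := by exact_mod_cast hs.ne'
  -- the functional in terms of relative entropies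
  have key : ∀ X, X.PosSemidef → X.trace = 1 →
      F X = - (T * rel (Φ X + E) C) + s * rel X σ - s * z - T * (E * V).trace.re := by
    intro X hX hXt
    rw [hF X hX hXt, rel_eq_ent (hC X hX).isHermitian, rel_eq_ent hX.isHermitian, hσl]
    have e1 : ((Φ X + E) * cfc Real.log C).trace.re = (X * Φd V).trace.re + (E * V).trace.re := by
      rw [Matrix.add_mul, Matrix.trace_add, Complex.add_re, hdual]
    have e2 : (X * (-(((1 / s : ℝ) : ℂ) • K) - (z : ℂ) • (1 : Matrix ι ι ℂ))).trace.re =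
        - (1 / s) * ((X * L).trace.re - T * (X * Φd V).trace.re) - z := by
      rw [hK, Matrix.mul_sub, Matrix.mul_neg, Matrix.mul_smul, Matrix.mul_smul, Matrix.mul_one,
        Matrix.trace_sub, Matrix.trace_neg, Matrix.trace_smul, Matrix.trace_smul, hXt,
        Matrix.mul_sub, Matrix.trace_sub, Matrix.mul_smul, Matrix.trace_smul]
      simp only [smul_eq_mul, Complex.sub_re, Complex.neg_re, Complex.re_ofReal_mul, mul_one,
        Complex.ofReal_re]
      ring
    rw [e1, e2]
    field_simp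
    ring
  have hrA : rel C C = 0 := rel_self C
  have hA1 := key A hA hAt
  rw [← hCdef, hrA] at hA1
  have hσ1 := key σ hσ.posSemidef hσt
  rw [rel_self σ] at hσ1
  have hσ2 : 0 ≤ rel (Φ σ + E) C := by
    have h1 := rel_ge (hC σ hσ.posSemidef).posSemidef (hC A hA)
    rw [Matrix.trace_add, Matrix.trace_add, htr σ hσ.posSemidef hσt, htr A hA hAt, sub_self] at h1
    exact h1
  have h3 := hmin σ hσ.posSemidef hσt
  have h4 : s * rel A σ ≤ 0 := by
    have : 0 ≤ T * rel (Φ σ + E) C := mul_nonneg hT hσ2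
    linarith
  have h5 : rel A σ ≤ 0 := by
    by_contra hcon
    have := mul_pos hs (not_le.1 hcon)
    linarith
  have hAσ : A = σ := eq_of_rel hA hσ (by rw [hAt, hσt, sub_self]; exact h5)
  have hApos : A.PosDef := by rw [hAσ]; exact hσ
  have hdiff : ∀ X, X.PosSemidef → X.trace = 1 →
      F X - F A = s * rel X A - T * rel (Φ X + E) C := by
    intro X hX hXt
    have e1 := key X hX hXt
    rw [← hAσ] at e1
    have e2 := key A hA hAt
    rw [← hCdef, hrA, ← hAσ, rel_self A] at e2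
    rw [e1, e2]
    ring
  refine ⟨hApos, ⟨-(s * z), ?_⟩, hdiff, ?_⟩
  · have e1 : cfc Real.log A = cfc Real.log σ := by rw [hAσ]
    rw [e1, hσl, hK, smul_sub, smul_neg, smul_smul, smul_smul]
    have e2 : (s : ℂ) * ((1 / s : ℝ) : ℂ) = 1 := by
      rw [← Complex.ofReal_mul, mul_one_div_cancel hs.ne', Complex.ofReal_one]
    rw [e2, one_smul]
    push_cast
    rw [neg_smul]
    abel
  · intro X hX hXt
    have e1 := hmin X hX hXt
    have e2 := hdiff X hX hXt
    linarith

omit [DecidableEq κ] in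
/-- first-order consequence of the Euler-Lagrange equation in a direction of trace zero -/
theorem el_dir {Φ : Matrix ι ι ℂ →ₗ[ℂ] Matrix κ κ ℂ} {Φd : Matrix κ κ ℂ → Matrix ι ι ℂ}
    (hdual : ∀ X Z, (Φ X * Z).trace = (X * Φd Z).trace) {L A : Matrix ι ι ℂ} {V : Matrix κ κ ℂ}
    {s T c0 : ℝ} (hEL : (s : ℂ) • cfc Real.log A =
      (T : ℂ) • Φd V - L + (c0 : ℂ) • (1 : Matrix ι ι ℂ)) {X : Matrix ι ι ℂ} (hX : X.trace = 0) :
    (s : ℂ) * (X * cfc Real.log A).trace = (T : ℂ) * (Φ X * V).trace - (X * L).trace := by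
  have h := congrArg (fun M => (X * M).trace) hEL
  simp only [Matrix.mul_smul, Matrix.trace_smul, Matrix.mul_add, Matrix.mul_sub, Matrix.trace_add,
    Matrix.trace_sub, Matrix.mul_one, hX, smul_eq_mul, mul_zero, add_zero] at h
  rw [h, hdual]

end

end Vale.Agent.P369.H993
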